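import Vale.Agent.H56.LangPlaut.Finite

namespace Vale.Agent.Results.P208.A0_LangPlautFiniteForm

open Vale.Agent.H56.LangPlaut

/-- For subsets of `ℓ²` (the real Hilbert space `lp (fun _ : ℕ => ℝ) 2`) the following are
equivalent:
* (LP) every doubling subset admits a bi-Lipschitz embedding into some `ℝ^k`;
* (LPc) every compact doubling subset does;
* (LPu) for every `lam` there are `k` and `D`, depending on `lam` only, such that every subset
  with doubling constant at most `lam` embeds into `ℝ^k` with distortion at most `D`;
* (LPf) for every `lam` there are `k` and `D`, depending on `lam` only, such that every finite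
  subset with doubling constant at most `lam` embeds into `ℝ^k` with distortion at most `D`. -/
theorem result : (LangPlaut ↔ LangPlautCompact) ∧ (LangPlaut ↔ LangPlautUniform) ∧
    (LangPlaut ↔ LangPlautFinite) := by
  have h1 : LangPlautCompact → LangPlaut := by
    intro h X hX
    obtain ⟨lam, hlam⟩ := hX
    obtain ⟨k, D, hkD⟩ := uniform_of_compact h lam
    exact ⟨k, D, hkD X hlam⟩
  have h2 : LangPlautUniform → LangPlaut := by
    intro h X hX
    obtain ⟨lam, hlam⟩ := hX
    obtain ⟨k, D, hkD⟩ := h lam
    exact ⟨k, D, hkD X hlam⟩
  have h3 : LangPlaut → LangPlautUniform := fun h =>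
    uniform_of_compact (fun X _ hX => h X hX)
  exact ⟨⟨fun h X _ hX => h X hX, h1⟩, ⟨h3, h2⟩,
    ⟨fun h => finite_of_uniform (h3 h), fun h => h2 (uniform_of_finite h)⟩⟩

end Vale.Agent.Results.P208.A0_LangPlautFiniteForm
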