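import Vale.Agent.H56.LangPlaut.Main

namespace Vale.Agent.Results.P208.A_LangPlautUniform

open Vale.Agent.H56.LangPlaut

/-- For subsets of `ℓ²` (the real Hilbert space `lp (fun _ : ℕ => ℝ) 2`) the following are
equivalent:
* (LP) every doubling subset admits a bi-Lipschitz embedding into some `ℝ^k`;
* (LPc) every compact doubling subset does;
* (LPu) for every `lam` there are `k` and `D`, depending on `lam` only, such that every subset
  with doubling constant at most `lam` embeds into `ℝ^k` with distortion at most `D`. -/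
theorem result : (LangPlaut ↔ LangPlautCompact) ∧ (LangPlaut ↔ LangPlautUniform) := by
  have h1 : LangPlautCompact → LangPlaut := by
    intro h X hX
    obtain ⟨lam, hlam⟩ := hX
    obtain ⟨k, D, hkD⟩ := uniform_of_compact h lam
    exact ⟨k, D, hkD X hlam⟩
  refine ⟨⟨fun h X _ hX => h X hX, h1⟩, ⟨fun h => uniform_of_compact (fun X _ hX => h X hX), ?_⟩⟩
  intro h X hX
  obtain ⟨lam, hlam⟩ := hX
  obtain ⟨k, D, hkD⟩ := h lam
  exact ⟨k, D, hkD X hlam⟩

end Vale.Agent.Results.P208.A_LangPlautUniform
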